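import Vale.Agent.P024.Defs

namespace Vale.Agent.P024

universe u

open scoped Topology

lemma continuous_of_isOpen_stabilizers {G : Type*} [Group G] [TopologicalSpace G]
    [IsTopologicalGroup G] {K L : Type*} [Field K] [Field L] [Algebra K L]
    (φ : G →* (L ≃ₐ[K] L)) (h : ∀ x : L, IsOpen {g : G | φ g x = x}) : Continuous φ := by
  apply continuous_of_continuousAt_one φ (continuousAt_def.mpr _)
  intro N hN
  rw [map_one, krullTopology_mem_nhds_one_iff] at hN
  obtain ⟨E, hfin, hE⟩ := hN
  let b := Module.finBasis K E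
  have hopen : IsOpen (⋂ i, {g : G | φ g (b i : L) = b i}) :=
    isOpen_iInter_of_finite (fun i => h _)
  refine mem_nhds_iff.mpr ⟨_, ?_, hopen, ?_⟩
  · intro g hg
    apply hE
    rw [SetLike.mem_coe, IntermediateField.mem_fixingSubgroup_iff]
    intro y hy
    have hsum := b.sum_repr ⟨y, hy⟩
    have hy' : y = ∑ i, (b.repr ⟨y, hy⟩ i) • (b i : L) := by
      have := congrArg (fun z : E => (z : L)) hsum
      simp only [AddSubmonoidClass.coe_finsetSum, IntermediateField.coe_smul] at this
      exact this.symm
    rw [hy', map_sum]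
    refine Finset.sum_congr rfl ?_
    intro i _
    rw [map_smul]
    congr 1
    exact Set.mem_iInter.1 hg i
  · simp

lemma isOpen_fix {K L : Type*} [Field K] [Field L] [Algebra K L] [Algebra.IsIntegral K L] (x : L) :
    IsOpen {g : L ≃ₐ[K] L | g x = x} := by
  have := stabilizer_isOpen_of_isIntegral (K := K) x
  convert this using 1
  ext g
  simp [MulAction.mem_stabilizer_iff]

lemma exists_descent {L Ω E : Type*} [Field L] [Field Ω] [Field E] [Algebra L Ω] [IsGalois L Ω]
    (j : E →+* Ω) (h : ∀ (g : Ω ≃ₐ[L] Ω) (x : E), g (j x) = j x) :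
    ∃ j' : E →+* L, ∀ x, algebraMap L Ω (j' x) = j x := by
  have hmem : ∀ x, j x ∈ (algebraMap L Ω).range := by
    intro x
    rw [RingHom.mem_range]
    have := (InfiniteGalois.mem_range_algebraMap_iff_fixed (k := L) (K := Ω) (j x)).2
      (fun f => h f x)
    exact this
  let e : L ≃+* (algebraMap L Ω).range :=
    RingEquiv.ofBijective (algebraMap L Ω).rangeRestrict
      ⟨fun a b hab => (algebraMap L Ω).injective (congrArg Subtype.val hab),
        (algebraMap L Ω).rangeRestrict_surjective⟩
  refine ⟨(e.symm : (algebraMap L Ω).range →+* L).comp (j.codRestrict _ hmem), ?_⟩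
  intro x
  have : (e (e.symm (j.codRestrict _ hmem x)) : Ω) = j x := by
    rw [RingEquiv.apply_symm_apply]
    rfl
  exact this

end Vale.Agent.P024
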