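import Mathlib

namespace Vale.Agent.P024

universe u

/-- A field `E` is solvably closed if it has no nontrivial abelian extension: every Galois
(in particular algebraic) extension `K / E` with commutative Galois group is trivial. -/
def SolvablyClosed (E : Type u) [Field E] : Prop :=
  ∀ (K : Type u) [Field K] [Algebra E K], IsGalois E K →
    (∀ σ τ : K ≃ₐ[E] K, σ * τ = τ * σ) → Function.Surjective (algebraMap E K)

/-- The field embedding `j : E₂ → E₁` induces the homomorphism `α : Gal(E₁/F₁) → Gal(E₂/F₂)`: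
`g ∘ j = j ∘ α g` for all `g`. -/
def Induces {F₁ E₁ F₂ E₂ : Type u} [Field F₁] [Field E₁] [Field F₂] [Field E₂]
    [Algebra F₁ E₁] [Algebra F₂ E₂] (j : E₂ →+* E₁)
    (α : (E₁ ≃ₐ[F₁] E₁) →* (E₂ ≃ₐ[F₂] E₂)) : Prop :=
  ∀ (g : E₁ ≃ₐ[F₁] E₁) (x : E₂), g (j x) = j (α g x)

/-- Uchida's conjecture (Q1): for number fields `F₁, F₂` and solvably closed Galois extensions
`E₁ / F₁`, `E₂ / F₂`, every continuous homomorphism `Gal(E₁/F₁) → Gal(E₂/F₂)` (Krull topologies)
with open image is induced by a field embedding `E₂ → E₁`. -/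
def UchidaConjecture : Prop :=
  ∀ (F₁ E₁ F₂ E₂ : Type u) [Field F₁] [Field E₁] [Field F₂] [Field E₂]
    [NumberField F₁] [NumberField F₂] [Algebra F₁ E₁] [Algebra F₂ E₂]
    [IsGalois F₁ E₁] [IsGalois F₂ E₂], SolvablyClosed E₁ → SolvablyClosed E₂ →
    ∀ α : (E₁ ≃ₐ[F₁] E₁) →* (E₂ ≃ₐ[F₂] E₂), Continuous α → IsOpen (Set.range α) →
      ∃ j : E₂ →+* E₁, Induces j α

/-- The isomorphism form: the source `L / F₁` is an arbitrary Galois extension of a number field
(not assumed solvably closed), the target `E₂ / F₂` is solvably closed, and every continuous group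
isomorphism `Gal(L/F₁) ≃ Gal(E₂/F₂)` is required to be induced by a field embedding `E₂ → L`. -/
def UchidaIsoForm : Prop :=
  ∀ (F₁ L F₂ E₂ : Type u) [Field F₁] [Field L] [Field F₂] [Field E₂]
    [NumberField F₁] [NumberField F₂] [Algebra F₁ L] [Algebra F₂ E₂]
    [IsGalois F₁ L] [IsGalois F₂ E₂], SolvablyClosed E₂ →
    ∀ β : (L ≃ₐ[F₁] L) ≃* (E₂ ≃ₐ[F₂] E₂), Continuous β →
      ∃ j : E₂ →+* L, Induces j β.toMonoidHom

/-- The absolute surjective form: `E₁` is algebraically closed and `α` is surjective. -/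
def UchidaAbsSurjForm : Prop :=
  ∀ (F₁ E₁ F₂ E₂ : Type u) [Field F₁] [Field E₁] [Field F₂] [Field E₂]
    [NumberField F₁] [NumberField F₂] [Algebra F₁ E₁] [Algebra F₂ E₂]
    [IsGalois F₁ E₁] [IsGalois F₂ E₂], IsAlgClosed E₁ → SolvablyClosed E₂ →
    ∀ α : (E₁ ≃ₐ[F₁] E₁) →* (E₂ ≃ₐ[F₂] E₂), Continuous α → Function.Surjective α →
      ∃ j : E₂ →+* E₁, Induces j α

end Vale.Agent.P024
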