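import Vale.Agent.P024.Basic

namespace Vale.Agent.P024

universe u

open scoped Topology

lemma restrictNormalHom_continuous' {F L Ω : Type*} [Field F] [Field L] [Field Ω] [Algebra F L]
    [Algebra F Ω] [Algebra L Ω] [IsScalarTower F L Ω] [Normal F L] [Algebra.IsIntegral F Ω] :
    Continuous (AlgEquiv.restrictNormalHom (F := F) (K₁ := Ω) L) := by
  apply continuous_of_isOpen_stabilizers
  intro x
  have h := isOpen_fix (K := F) (L := Ω) (algebraMap L Ω x)
  convert h using 1
  ext g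
  simp only [Set.mem_ofPred_eq]
  rw [← AlgEquiv.restrictNormal_commutes g L x]
  constructor
  · intro hg
    exact congrArg _ hg
  · intro hg
    exact (algebraMap L Ω).injective hg

theorem isoForm_of_absSurj (h : UchidaAbsSurjForm.{u}) : UchidaIsoForm.{u} := by
  intro F₁ L F₂ E₂ _ _ _ _ _ _ _ _ _ _ hE₂ β hβ
  let Ω := AlgebraicClosure L
  have : IsAlgClosure F₁ Ω := IsAlgClosure.ofAlgebraic F₁ L Ω
  have : Algebra.IsAlgebraic F₁ Ω := IsAlgClosure.isAlgebraic
  have : IsGalois F₁ Ω := IsGalois.mk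
  have : IsGalois L Ω := IsGalois.tower_top_of_isGalois F₁ L Ω
  let res : (Ω ≃ₐ[F₁] Ω) →* (L ≃ₐ[F₁] L) := AlgEquiv.restrictNormalHom L
  have hres : Continuous res := restrictNormalHom_continuous'
  have hsurj : Function.Surjective res := AlgEquiv.restrictNormalHom_surjective Ω
  obtain ⟨j, hj⟩ := h F₁ Ω F₂ E₂ (inferInstance : IsAlgClosed Ω) hE₂ (β.toMonoidHom.comp res)
    (hβ.comp hres) (β.surjective.comp hsurj)
  have hfix : ∀ (g : Ω ≃ₐ[L] Ω) (x : E₂), g (j x) = j x := by
    intro g x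
    have h1 := hj (g.restrictScalars F₁) x
    have h2 : res (g.restrictScalars F₁) = 1 := by
      ext y
      apply (algebraMap L Ω).injective
      have := AlgEquiv.restrictNormal_commutes (g.restrictScalars F₁) L y
      rw [show res (g.restrictScalars F₁) y = (g.restrictScalars F₁).restrictNormal L y from rfl,
        this]
      simp
    simp only [MonoidHom.comp_apply, h2, map_one, AlgEquiv.one_apply] at h1
    exact h1
  obtain ⟨j', hj'⟩ := exists_descent j hfix
  refine ⟨j', ?_⟩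
  intro g₀ x
  obtain ⟨g, rfl⟩ := hsurj g₀
  apply (algebraMap L Ω).injective
  have h1 := AlgEquiv.restrictNormal_commutes g L (j' x)
  rw [show res g (j' x) = g.restrictNormal L (j' x) from rfl, h1, hj', hj', hj g x]
  rfl

theorem conj_of_isoForm (h : UchidaIsoForm.{u}) : UchidaConjecture.{u} := by
  intro F₁ E₁ F₂ E₂ _ _ _ _ _ _ _ _ _ _ _ hE₂ α hα hopen
  -- Step 1: the fixed field of the image
  have hclosed : IsClosed (α.range : Set (E₂ ≃ₐ[F₂] E₂)) :=
    Subgroup.isClosed_of_isOpen α.range (by simpa using hopen)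
  let Hc : ClosedSubgroup (E₂ ≃ₐ[F₂] E₂) := ⟨α.range, hclosed⟩
  let F₂' : IntermediateField F₂ E₂ := IntermediateField.fixedField α.range
  have hfix : F₂'.fixingSubgroup = α.range := InfiniteGalois.fixingSubgroup_fixedField Hc
  have hfin : FiniteDimensional F₂ F₂' := by
    rw [← InfiniteGalois.isOpen_iff_finite, hfix]
    exact hopen
  have hnf : NumberField F₂' := NumberField.of_module_finite F₂ F₂'
  have hgal' : IsGalois F₂' E₂ := inferInstance
  have hint' : Algebra.IsIntegral F₂' E₂ := inferInstance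
  have ht2 : T2Space (E₂ ≃ₐ[F₂'] E₂) := krullTopology_t2
  have ht1 : T1Space (E₂ ≃ₐ[F₂'] E₂) := T2Space.t1Space
  -- Step 2: the corestricted homomorphism
  let α₀ : (E₁ ≃ₐ[F₁] E₁) →* F₂'.fixingSubgroup :=
    α.codRestrict F₂'.fixingSubgroup (fun g => by rw [hfix]; exact ⟨g, rfl⟩)
  let α' : (E₁ ≃ₐ[F₁] E₁) →* (E₂ ≃ₐ[F₂'] E₂) :=
    (IntermediateField.fixingSubgroupEquiv F₂').toMonoidHom.comp α₀
  have hα'apply : ∀ g x, α' g x = α g x := fun g x => rfl
  have hα'surj : Function.Surjective α' := by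
    intro τ
    have hmem : ((IntermediateField.fixingSubgroupEquiv F₂').symm τ : E₂ ≃ₐ[F₂] E₂) ∈ α.range := by
      rw [← hfix]; exact ((IntermediateField.fixingSubgroupEquiv F₂').symm τ).2
    obtain ⟨g, hg⟩ := hmem
    refine ⟨g, ?_⟩
    ext x
    rw [hα'apply, hg]
    rfl
  have hα'cont : Continuous α' := by
    apply continuous_of_isOpen_stabilizers
    intro x
    have := (isOpen_fix (K := F₂) (L := E₂) x).preimage hα
    exact this
  -- Step 3: the fixed field of the kernel
  have hkerclosed : IsClosed (α'.ker : Set (E₁ ≃ₐ[F₁] E₁)) := by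
    have : (α'.ker : Set (E₁ ≃ₐ[F₁] E₁)) = α' ⁻¹' {1} := by
      ext g; simp [MonoidHom.mem_ker]
    rw [this]
    exact isClosed_singleton.preimage hα'cont
  let Nc : ClosedSubgroup (E₁ ≃ₐ[F₁] E₁) := ⟨α'.ker, hkerclosed⟩
  let L : IntermediateField F₁ E₁ := IntermediateField.fixedField α'.ker
  have hLfix : L.fixingSubgroup = α'.ker := InfiniteGalois.fixingSubgroup_fixedField Nc
  have hLgal : IsGalois F₁ L := by
    rw [← InfiniteGalois.normal_iff_isGalois, hLfix]
    infer_instance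
  let π : (E₁ ≃ₐ[F₁] E₁) →* (L ≃ₐ[F₁] L) := AlgEquiv.restrictNormalHom L
  have hπsurj : Function.Surjective π := AlgEquiv.restrictNormalHom_surjective E₁
  have hπker : π.ker = α'.ker := by
    rw [← hLfix]; exact L.restrictNormalHom_ker
  have hπcont : Continuous π := InfiniteGalois.restrictNormalHom_continuous L
  -- Step 4: the induced isomorphism
  let β₀ : (L ≃ₐ[F₁] L) →* (E₂ ≃ₐ[F₂'] E₂) :=
    π.liftOfSurjective hπsurj ⟨α', hπker.le⟩
  have hβ₀ : ∀ g, β₀ (π g) = α' g := fun g =>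
    π.liftOfRightInverse_comp_apply _ _ ⟨α', hπker.le⟩ g
  have hβ₀bij : Function.Bijective β₀ := by
    constructor
    · rw [injective_iff_map_eq_one]
      intro a ha
      obtain ⟨g, rfl⟩ := hπsurj a
      rw [hβ₀] at ha
      have : g ∈ π.ker := by rw [hπker]; exact ha
      exact this
    · intro τ
      obtain ⟨g, hg⟩ := hα'surj τ
      exact ⟨π g, by rw [hβ₀, hg]⟩
  let β : (L ≃ₐ[F₁] L) ≃* (E₂ ≃ₐ[F₂'] E₂) := MulEquiv.ofBijective β₀ hβ₀bij
  have hquot : Topology.IsQuotientMap π :=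
    (hπcont.isClosedMap).isQuotientMap hπcont hπsurj
  have hβcont : Continuous β := by
    have : Continuous β₀ := by
      rw [hquot.continuous_iff]
      have : (β₀ ∘ π) = α' := by
        ext1 g; exact hβ₀ g
      rw [this]; exact hα'cont
    exact this
  obtain ⟨j, hj⟩ := h F₁ L F₂' E₂ hE₂ β hβcont
  refine ⟨(algebraMap L E₁).comp j, ?_⟩
  intro g x
  have h1 := AlgEquiv.restrictNormal_commutes g L (j x)
  have h2 := hj (π g) x
  simp only [RingHom.comp_apply]
  rw [← h1]
  congr 1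
  rw [show g.restrictNormal L (j x) = π g (j x) from rfl, h2]
  congr 1
  have : β (π g) = α' g := hβ₀ g
  exact congrArg (fun σ : E₂ ≃ₐ[F₂'] E₂ => σ x) this

lemma solvablyClosed_of_isAlgClosed (E : Type u) [Field E] [IsAlgClosed E] : SolvablyClosed E := by
  intro K _ _ hK _
  have : Algebra.IsIntegral E K := inferInstance
  exact IsAlgClosed.algebraMap_bijective_of_isIntegral.2

theorem absSurj_of_conj (h : UchidaConjecture.{u}) : UchidaAbsSurjForm.{u} := by
  intro F₁ E₁ F₂ E₂ _ _ _ _ _ _ _ _ _ _ hE₁ hE₂ α hα hsurj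
  refine h F₁ E₁ F₂ E₂ (solvablyClosed_of_isAlgClosed E₁) hE₂ α hα ?_
  rw [hsurj.range_eq]
  exact isOpen_univ

end Vale.Agent.P024
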